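import Vale.Agent.P132.IMain
import Vale.Agent.P132.HCore

namespace Vale.Agent.Results.P132.Bicentralizer

open Vale.Agent.P132

universe u

theorem result (H : Type u) [NormedAddCommGroup H] [InnerProductSpace ℂ H] [CompleteSpace H]
    (M : VonNeumannAlgebra H) (hM : IsTypeIII1 M)
    (φ : (H →L[ℂ] H) → ℂ) (hφ : IsFaithfulNormalState M φ) :
    bicentralizer M φ = {a | ∃ c : ℂ, a = c • (1 : H →L[ℂ] H)} :=
  main_of core M hM φ hφ

end Vale.Agent.Results.P132.Bicentralizer
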